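import Mathlib
import Vale.Agent.P034.Defs
import Vale.Agent.P034.Main

namespace Vale.Agent.Results.P034.A_full

open Vale.Agent.P034

/-- Talagrand's conjecture: `q_f(F) ≤ K q(F)` with a universal constant `K`. -/
theorem result :
    ∃ K : ℝ, 0 < K ∧
      ∀ (X : Type) [Fintype X] [DecidableEq X] [Nonempty X] (F : Finset (Finset X)),
        F.Nonempty → IsUpperSet (F : Set (Finset X)) → ∅ ∉ F →
        fracExpThreshold F ≤ K * expThreshold F :=
  ⟨61440, by norm_num, fun _ _ _ _ F _ _ h0 => frac_le F h0⟩

end Vale.Agent.Results.P034.A_full
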